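import Vale.Agent.P091.CH.H539.Rows

/-!
# TREE LEMMA, row TA: the small tiles  (helper862)
-/

open Finset

namespace Vale.Agent.P091.CH.H862

open H69 H539

variable {K : ℕ}

/-! ### the function `rho` -/

section rho

variable {T : Finset Tile} {h : T.Nonempty}

theorem len_pos (s : Tile) : 0 < s.len := by unfold Tile.len; positivity

theorem len_le_one (s : Tile) : s.len ≤ 1 := by
  unfold Tile.len
  exact inv_le_one_of_one_le₀ (one_le_pow₀ one_le_two)

theorem rho_le {s : Tile} (hs : s ∈ T) (x : X K) : rho T h x ≤ s.len + nrm (x - s.c K) :=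
  Finset.inf'_le _ hs

theorem exists_rho (x : X K) : ∃ s ∈ T, rho T h x = s.len + nrm (x - s.c K) :=
  Finset.exists_mem_eq_inf' h _

theorem rho_pos (x : X K) : 0 < rho T h x := by
  obtain ⟨s, -, h1⟩ := exists_rho (h := h) x
  rw [h1]
  have := len_pos s
  have := nrm_nonneg (x - s.c K)
  linarith

theorem rho_le_two (x : X K) : rho T h x ≤ 3 / 2 := by
  obtain ⟨s, -, h1⟩ := exists_rho (h := h) x
  rw [h1]
  have := len_le_one s
  have := nrm_le_half (x - s.c K)
  linarith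

theorem rho_lip (x y : X K) : rho T h y ≤ rho T h x + nrm (x - y) := by
  obtain ⟨s, hs, h1⟩ := exists_rho (h := h) x
  have h2 := rho_le (h := h) hs y
  have h3 := nrm_tri y x (s.c K)
  rw [nrm_sub_comm y x] at h3
  linarith

end rho

/-! ### a ball contains many points -/

theorem ave_ball_ge {t : ℝ} (ht0 : 0 ≤ t) (ht1 : t < 1) (x : X K) :
    t ≤ ave (fun y : X K => if nrm (x - y) ≤ t then 1 else 0) := by
  have hpow : (0 : ℝ) < 2 ^ K := by positivity
  set n : ℕ := ⌊t * 2 ^ K⌋₊ + 1 with hn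
  have hn1 : t * 2 ^ K ≤ n := by
    rw [hn]; push_cast; exact (Nat.lt_floor_add_one _).le
  have hn2 : n ≤ 2 ^ K := by
    have h1 : t * 2 ^ K < ((2 ^ K : ℕ) : ℝ) := by push_cast; nlinarith
    have h2 : ⌊t * 2 ^ K⌋₊ < 2 ^ K := (Nat.floor_lt (by positivity)).2 h1
    omega
  -- the points `x + i`
  have hinj : Set.InjOn (fun i : ℕ => x + ((i : ℕ) : X K)) (range n) := by
    intro i hi j hj hij
    rw [coe_range, Set.mem_Iio] at hi hj
    have h1 : ((i : ℕ) : X K) = ((j : ℕ) : X K) := add_left_cancel hij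
    rw [ZMod.natCast_eq_natCast_iff'] at h1
    rwa [Nat.mod_eq_of_lt (by omega), Nat.mod_eq_of_lt (by omega)] at h1
  have hball : ∀ i ∈ range n, nrm (x - (x + ((i : ℕ) : X K))) ≤ t := by
    intro i hi
    rw [mem_range] at hi
    have e : x - (x + ((i : ℕ) : X K)) = -((i : ℕ) : X K) := by ring
    rw [e, nrm_neg]
    have h1 := nrm_sub_natCast_le (0 : X K) i
    rw [zero_sub, nrm_neg] at h1
    refine h1.trans ?_
    have h0 : ((0 : X K).val : ℝ) = 0 := by rw [ZMod.val_zero]; simp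
    rw [h0, zero_sub, abs_neg, abs_of_nonneg (by positivity), div_le_iff₀ hpow]
    have h2 : (i : ℝ) ≤ ⌊t * 2 ^ K⌋₊ := by
      have : i ≤ ⌊t * 2 ^ K⌋₊ := by omega
      exact_mod_cast this
    exact h2.trans (Nat.floor_le (by positivity))
  have hsum : (n : ℝ) ≤ ∑ y : X K, (if nrm (x - y) ≤ t then (1 : ℝ) else 0) := by
    rw [← Finset.sum_filter, Finset.sum_const, nsmul_eq_mul, mul_one]
    have h1 : (range n).image (fun i : ℕ => x + ((i : ℕ) : X K))
        ⊆ univ.filter (fun y : X K => nrm (x - y) ≤ t) := by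
      intro y hy
      obtain ⟨i, hi, rfl⟩ := Finset.mem_image.1 hy
      exact Finset.mem_filter.2 ⟨mem_univ _, hball i hi⟩
    have h2 := Finset.card_le_card h1
    rw [Finset.card_image_of_injOn hinj, card_range] at h2
    exact_mod_cast h2
  unfold ave
  rw [le_div_iff₀ hpow]
  exact hn1.trans hsum

/-! ### the weights -/

theorem w_pos (s : Tile) (x : X K) : 0 < 1 + 2 ^ s.k * nrm (x - s.c K) := by
  have := nrm_nonneg (x - s.c K)
  positivity

theorem iw_pos (s : Tile) (x : X K) : 0 < iw s x := inv_pos.2 (w_pos s x)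

theorem iw_le_one (s : Tile) (x : X K) : iw s x ≤ 1 := by
  have h := nrm_nonneg (x - s.c K)
  refine inv_le_one_of_one_le₀ ?_
  have : 0 ≤ (2 : ℝ) ^ s.k * nrm (x - s.c K) := by positivity
  linarith

theorem iR_nonneg (kT jT : ℕ) (x : X K) : 0 ≤ iR kT jT x := by
  unfold iR
  have := nrm_nonneg (x - pt K kT jT 0)
  positivity

/-- comparison of the weights of nearby points -/
theorem iw_near {T : Finset Tile} {h : T.Nonempty} {s : Tile} (hs : s ∈ T) {x y : X K}
    (hxy : nrm (x - y) ≤ rho T h x / 4) : 4 / 5 * iw s x ≤ iw s y := by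
  have h1 : 1 + 2 ^ s.k * nrm (y - s.c K) ≤ 5 / 4 * (1 + 2 ^ s.k * nrm (x - s.c K)) := by
    have h2 := nrm_tri y x (s.c K)
    rw [nrm_sub_comm y x] at h2
    have h3 := rho_le (h := h) hs x
    have h4 : (2 : ℝ) ^ s.k * s.len = 1 := by
      unfold Tile.len; exact mul_inv_cancel₀ (by positivity)
    have h5 : (0 : ℝ) < 2 ^ s.k := by positivity
    have h6 : nrm (y - s.c K) ≤ (s.len + nrm (x - s.c K)) / 4 + nrm (x - s.c K) := by linarith
    have h7 : (2 : ℝ) ^ s.k * nrm (y - s.c K)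
        ≤ 2 ^ s.k * ((s.len + nrm (x - s.c K)) / 4 + nrm (x - s.c K)) :=
      mul_le_mul_of_nonneg_left h6 h5.le
    nlinarith
  unfold iw
  have h8 : (4 : ℝ) / 5 * (1 + 2 ^ s.k * nrm (x - s.c K))⁻¹
      = (5 / 4 * (1 + 2 ^ s.k * nrm (x - s.c K)))⁻¹ := by
    rw [mul_inv]; norm_num
  rw [h8]
  exact inv_anti₀ (w_pos s y) h1

open Classical in
/-- the averaged weight -/
noncomputable def Bs (T : Finset Tile) (h : T.Nonempty) (K : ℕ) (s : Tile) : ℝ :=
  ave (fun y : X K => if s.len < 8 * rho T h y then (rho T h y)⁻¹ * iw s y ^ 10 else 0)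

theorem le_Bs {T : Finset Tile} {h : T.Nonempty} {s : Tile} (hs : s ∈ T) {x : X K}
    (hx : s.len < 4 * rho T h x) : iw s x ^ 10 ≤ 4 * (5 / 4) ^ 11 * Bs T h K s := by
  classical
  have hρ := rho_pos (h := h) x
  set c : ℝ := (4 / 5) ^ 11 * ((rho T h x)⁻¹ * iw s x ^ 10) with hc
  have hc0 : 0 ≤ c := by have := iw_pos s x; positivity
  have h1 : c * ave (fun y : X K => if nrm (x - y) ≤ rho T h x / 4 then 1 else 0) ≤ Bs T h K s := by
    rw [← ave_mul_left]
    refine ave_mono fun y => ?_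
    by_cases hy : nrm (x - y) ≤ rho T h x / 4
    · rw [if_pos hy, mul_one]
      have h2 := rho_lip (h := h) x y
      have h3 := rho_lip (h := h) y x
      rw [nrm_sub_comm y x] at h3
      have h4 : s.len < 8 * rho T h y := by linarith
      rw [if_pos h4]
      have h5 : 4 / 5 * (rho T h x)⁻¹ ≤ (rho T h y)⁻¹ := by
        have h6 : (4 : ℝ) / 5 * (rho T h x)⁻¹ = (5 / 4 * rho T h x)⁻¹ := by
          rw [mul_inv]; norm_num
        rw [h6]
        exact inv_anti₀ (rho_pos y) (by linarith)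
      have h7 := iw_near (h := h) hs hy
      have h8 : (4 / 5 * iw s x) ^ 10 ≤ iw s y ^ 10 :=
        pow_le_pow_left₀ (by have := iw_pos s x; positivity) h7 10
      calc c = (4 / 5 * (rho T h x)⁻¹) * (4 / 5 * iw s x) ^ 10 := by rw [hc]; ring
        _ ≤ (rho T h y)⁻¹ * iw s y ^ 10 :=
            mul_le_mul h5 h8 (by have := iw_pos s x; positivity) (by have := rho_pos (h := h) y; positivity)
    · rw [if_neg hy, mul_zero]
      split_ifs
      · have := rho_pos (h := h) y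
        have := iw_pos s y
        positivity
      · exact le_rfl
  have h2 : rho T h x / 4 ≤ ave (fun y : X K => if nrm (x - y) ≤ rho T h x / 4 then 1 else 0) :=
    ave_ball_ge (by positivity) (by have := rho_le_two (h := h) x; linarith) x
  have h3 : c * (rho T h x / 4) ≤ Bs T h K s := (mul_le_mul_of_nonneg_left h2 hc0).trans h1
  have h4 : c * (rho T h x / 4) = (4 / 5) ^ 11 / 4 * iw s x ^ 10 := by
    rw [hc]; field_simp
  rw [h4] at h3
  have h5 : iw s x ^ 10 = 4 * (5 / 4) ^ 11 * ((4 / 5) ^ 11 / 4 * iw s x ^ 10) := by ring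
  rw [h5]
  exact mul_le_mul_of_nonneg_left h3 (by positivity)

/-! ### the sum over the tiles at one point -/

theorem geo_sum (n : ℕ) {t : ℝ} (ht : 0 ≤ t) :
    ∑ k ∈ range n, (if ((2 : ℝ) ^ k)⁻¹ < t then ((2 : ℝ) ^ k)⁻¹ else 0) ≤ 2 * t := by
  have h1 : ∀ k ∈ range n, (if ((2 : ℝ) ^ k)⁻¹ < t then ((2 : ℝ) ^ k)⁻¹ else 0)
      ≤ 2 * (min ((2 : ℝ) ^ k)⁻¹ t - min ((2 : ℝ) ^ (k + 1))⁻¹ t) := by
    intro k _
    have e : ((2 : ℝ) ^ (k + 1))⁻¹ = ((2 : ℝ) ^ k)⁻¹ / 2 := by rw [pow_succ, mul_inv]; ring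
    have hp : (0 : ℝ) < ((2 : ℝ) ^ k)⁻¹ := by positivity
    rw [e]
    split_ifs with hlt
    · rw [min_eq_left hlt.le, min_eq_left (by linarith)]
      linarith
    · have : min (((2 : ℝ) ^ k)⁻¹ / 2) t ≤ min ((2 : ℝ) ^ k)⁻¹ t :=
        min_le_min_right _ (by linarith)
      linarith
  refine (Finset.sum_le_sum h1).trans ?_
  rw [← Finset.mul_sum, Finset.sum_range_sub']
  have h2 : min ((2 : ℝ) ^ 0)⁻¹ t ≤ t := min_le_right _ _
  have h3 : 0 ≤ min ((2 : ℝ) ^ n)⁻¹ t := le_min (by positivity) ht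
  linarith

theorem iw_le_iR {T : Finset Tile} {kT jT : ℕ} {ξ m : ℤ} (hT : IsOff K T kT jT ξ m) {s : Tile}
    (hs : s ∈ T) (y : X K) : iw s y ≤ 2 * iR kT jT y := by
  obtain ⟨h1, h2⟩ := hT.top s hs
  have hok := hT.good.2 s hs
  have hsK : s.k + 6 ≤ K := hok.1
  -- the left end of `I_s` lies in `I_T`
  have hmem : (s.c K) ∈ dy K kT jT := by
    have h3 : (s.c K) ∈ dy K s.k s.j := by
      unfold Tile.c
      rw [mem_dy, pt]
      have hj := hok.2.1
      have e : s.j * 2 ^ (K - s.k) + 0 * 2 ^ (K - s.k - 3) = s.j * 2 ^ (K - s.k) := by ring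
      have hlt : s.j * 2 ^ (K - s.k) < 2 ^ K := by
        have hK : 2 ^ K = 2 ^ s.k * 2 ^ (K - s.k) := by
          rw [← pow_add, Nat.add_sub_cancel' (by omega)]
        rw [hK]
        exact Nat.mul_lt_mul_of_pos_right hj (by positivity)
      rw [e, ZMod.val_natCast_of_lt hlt]
      exact Nat.mul_div_cancel _ (by positivity)
    have h4 := dy_subset (K := K) (j := s.j) h1 (by omega) h3
    rwa [h2] at h4
  have h5 : nrm (s.c K - pt K kT jT 0) ≤ ((2 : ℝ) ^ kT)⁻¹ :=
    nrm_sub_pt_le (by omega) (by norm_num) hmem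
  have h6 := nrm_tri y (s.c K) (pt K kT jT 0)
  have hpow : (2 : ℝ) ^ kT ≤ 2 ^ s.k := pow_le_pow_right₀ one_le_two h1
  have hn := nrm_nonneg (y - s.c K)
  have h7 : 1 + 2 ^ kT * nrm (y - pt K kT jT 0) ≤ 2 * (1 + 2 ^ s.k * nrm (y - s.c K)) := by
    have h8 : (2 : ℝ) ^ kT * nrm (y - pt K kT jT 0)
        ≤ 2 ^ kT * (nrm (y - s.c K) + ((2 : ℝ) ^ kT)⁻¹) :=
      mul_le_mul_of_nonneg_left (by linarith) (by positivity)
    rw [mul_add, mul_inv_cancel₀ (by positivity)] at h8
    have h9 : (2 : ℝ) ^ kT * nrm (y - s.c K) ≤ 2 ^ s.k * nrm (y - s.c K) :=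
      mul_le_mul_of_nonneg_right hpow hn
    have h10 : 0 ≤ (2 : ℝ) ^ s.k * nrm (y - s.c K) := by positivity
    linarith
  have hR : 0 < 1 + 2 ^ kT * nrm (y - pt K kT jT 0) := by
    have := nrm_nonneg (y - pt K kT jT 0)
    positivity
  unfold iw iR
  rw [inv_le_comm₀ (w_pos s y) (by positivity), mul_inv, inv_inv]
  linarith

/-- the tiles of one scale -/
theorem sum_scale {T : Finset Tile} {kT jT : ℕ} {ξ m : ℤ} (hT : IsOff K T kT jT ξ m) (k : ℕ)
    (y : X K) : ∑ s ∈ T with s.k = k, iw s y ^ 2 ≤ 4 := by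
  by_cases hk : k + 3 ≤ K
  · refine le_trans ?_ (geo2 (K := K) (n := 2) le_rfl (k := k) (r := 0) hk y)
    have hinj : Set.InjOn Tile.j (T.filter (fun s => s.k = k)) := by
      intro s hs t ht hst
      rw [Finset.mem_coe, Finset.mem_filter] at hs ht
      have e1 := hT.off s hs.1
      have e2 := hT.off t ht.1
      rw [hs.2] at e1
      rw [ht.2] at e2
      exact Tile.ext (hs.2.trans ht.2.symm) hst (e1.trans e2.symm)
    have h1 : ∑ s ∈ T with s.k = k, iw s y ^ 2
        = ∑ j ∈ (T.filter (fun s => s.k = k)).image Tile.j,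
          (1 + 2 ^ k * nrm (y - pt K k j 0))⁻¹ ^ 2 := by
      rw [Finset.sum_image hinj]
      refine Finset.sum_congr rfl fun s hs => ?_
      rw [Finset.mem_filter] at hs
      unfold iw Tile.c
      rw [hs.2]
    rw [h1]
    refine Finset.sum_le_sum_of_subset_of_nonneg ?_ fun _ _ _ => by positivity
    intro j hj
    obtain ⟨s, hs, rfl⟩ := Finset.mem_image.1 hj
    rw [Finset.mem_filter] at hs
    have := (hT.good.2 s hs.1).2.1
    rw [hs.2] at this
    exact Finset.mem_range.2 this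
  · have h1 : T.filter (fun s => s.k = k) = ∅ := by
      refine Finset.filter_eq_empty_iff.2 fun s hs hsk => ?_
      have := (hT.good.2 s hs).1
      omega
    rw [h1, Finset.sum_empty]
    norm_num

theorem sum_point {T : Finset Tile} {kT jT : ℕ} {ξ m : ℤ}
    (hT : IsOff K T kT jT ξ m) (y : X K) {t : ℝ} (ht : 0 ≤ t) :
    ∑ s ∈ T, (if s.len < t then s.len * iw s y ^ 10 else 0) ≤ 32 * t * iR kT jT y ^ 2 := by
  classical
  have hmaps : ∀ s ∈ T, s.k ∈ range (K + 1) := fun s hs => by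
    have := (hT.good.2 s hs).1
    rw [mem_range]; omega
  rw [← Finset.sum_fiberwise_of_maps_to hmaps]
  have hR := iR_nonneg kT jT y
  have hk : ∀ k ∈ range (K + 1), ∑ s ∈ T with s.k = k, (if s.len < t then s.len * iw s y ^ 10 else 0)
      ≤ (if ((2 : ℝ) ^ k)⁻¹ < t then ((2 : ℝ) ^ k)⁻¹ else 0) * (16 * iR kT jT y ^ 2) := by
    intro k _
    by_cases hlt : ((2 : ℝ) ^ k)⁻¹ < t
    · rw [if_pos hlt]
      have h1 : ∑ s ∈ T with s.k = k, (if s.len < t then s.len * iw s y ^ 10 else 0)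
          ≤ ∑ s ∈ T with s.k = k, ((2 : ℝ) ^ k)⁻¹ * (4 * iR kT jT y ^ 2) * iw s y ^ 2 := by
        refine Finset.sum_le_sum fun s hs => ?_
        rw [Finset.mem_filter] at hs
        have hlen : s.len = ((2 : ℝ) ^ k)⁻¹ := by unfold Tile.len; rw [hs.2]
        rw [hlen, if_pos hlt]
        have h2 := iw_le_iR hT hs.1 y
        have h3 := iw_pos s y
        have h4 := iw_le_one s y
        have h5 : iw s y ^ 10 ≤ (2 * iR kT jT y) ^ 2 * iw s y ^ 2 := by
          have h6 : iw s y ^ 2 ≤ (2 * iR kT jT y) ^ 2 := pow_le_pow_left₀ h3.le h2 2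
          have h7 : iw s y ^ 6 ≤ 1 := pow_le_one₀ h3.le h4
          have h8 : iw s y ^ 10 = iw s y ^ 2 * iw s y ^ 2 * iw s y ^ 6 := by ring
          rw [h8]
          have h9 : 0 ≤ iw s y ^ 2 * iw s y ^ 2 := by positivity
          calc iw s y ^ 2 * iw s y ^ 2 * iw s y ^ 6 ≤ iw s y ^ 2 * iw s y ^ 2 * 1 :=
                mul_le_mul_of_nonneg_left h7 h9
            _ = iw s y ^ 2 * iw s y ^ 2 := mul_one _
            _ ≤ _ := mul_le_mul_of_nonneg_right h6 (by positivity)
        have h10 : (0 : ℝ) ≤ ((2 : ℝ) ^ k)⁻¹ := by positivity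
        calc ((2 : ℝ) ^ k)⁻¹ * iw s y ^ 10 ≤ ((2 : ℝ) ^ k)⁻¹ * ((2 * iR kT jT y) ^ 2 * iw s y ^ 2) :=
              mul_le_mul_of_nonneg_left h5 h10
          _ = _ := by ring
      refine h1.trans ?_
      rw [← Finset.mul_sum]
      have h11 := sum_scale hT k y
      have h12 : 0 ≤ ((2 : ℝ) ^ k)⁻¹ * (4 * iR kT jT y ^ 2) := by positivity
      calc _ ≤ ((2 : ℝ) ^ k)⁻¹ * (4 * iR kT jT y ^ 2) * 4 := mul_le_mul_of_nonneg_left h11 h12
        _ = _ := by ring
    · rw [if_neg hlt, zero_mul]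
      refine (Finset.sum_eq_zero fun s hs => ?_).le
      rw [Finset.mem_filter] at hs
      have hlen : s.len = ((2 : ℝ) ^ k)⁻¹ := by unfold Tile.len; rw [hs.2]
      rw [hlen, if_neg hlt]
  refine (Finset.sum_le_sum hk).trans ?_
  rw [← Finset.sum_mul]
  have h1 := geo_sum (K + 1) ht
  calc _ ≤ 2 * t * (16 * iR kT jT y ^ 2) := mul_le_mul_of_nonneg_right h1 (by positivity)
    _ = _ := by ring

/-! ### the row -/

theorem dom_self (s : Tile) : Dom s s := by
  refine ⟨le_rfl, ?_, ?_⟩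
  · simp
  · simp

/-- **row TA** -/
theorem pTA : P_TA := by
  classical
  refine ⟨4 * (5 / 4) ^ 11 * 1024, by positivity, ?_⟩
  intro K N E T h kT jT ξ m μ hμ hT hM
  have hok := hT.good.2
  have h1 : ∀ s ∈ T, ave (fun x : X K => if x ∈ E ∧ N x / 2 ^ s.k = s.l ∧ s.len < 4 * rho T h x
      then iw s x ^ 20 else 0) ≤ 4 * (5 / 4) ^ 11 * μ * (s.len * Bs T h K s) := by
    intro s hs
    have hB : 0 ≤ Bs T h K s := by
      refine ave_nonneg fun y => ?_
      split_ifs
      · have := rho_pos (h := h) y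
        have := iw_pos s y
        positivity
      · exact le_rfl
    have h2 : ave (fun x : X K => if x ∈ E ∧ N x / 2 ^ s.k = s.l ∧ s.len < 4 * rho T h x
        then iw s x ^ 20 else 0)
        ≤ 4 * (5 / 4) ^ 11 * Bs T h K s * dens E N s := by
      unfold dens
      rw [← ave_mul_left]
      refine ave_mono fun x => ?_
      by_cases hx : x ∈ E ∧ N x / 2 ^ s.k = s.l
      · rw [if_pos hx]
        have e : wt s.k (s.c K) x = iw s x ^ 10 := rfl
        rw [e]
        have hi := iw_pos s x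
        by_cases hx2 : s.len < 4 * rho T h x
        · rw [if_pos ⟨hx.1, hx.2, hx2⟩]
          have h3 := le_Bs (h := h) hs hx2
          calc iw s x ^ 20 = iw s x ^ 10 * iw s x ^ 10 := by ring
            _ ≤ _ := mul_le_mul_of_nonneg_right h3 (by positivity)
        · rw [if_neg fun hh => hx2 hh.2.2]
          positivity
      · rw [if_neg hx, if_neg fun hh => hx ⟨hh.1, hh.2.1⟩, mul_zero]
    refine h2.trans ?_
    have h3 : dens E N s ≤ μ * s.len := hM s hs s (dom_self s)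
    calc _ ≤ 4 * (5 / 4) ^ 11 * Bs T h K s * (μ * s.len) :=
          mul_le_mul_of_nonneg_left h3 (by positivity)
      _ = _ := by ring
  refine (Finset.sum_le_sum h1).trans ?_
  rw [← Finset.mul_sum]
  have h4 : ∑ s ∈ T, s.len * Bs T h K s ≤ 1024 * ((2 : ℝ) ^ kT)⁻¹ := by
    have e1 : ∑ s ∈ T, s.len * Bs T h K s
        = ave (fun y : X K => (rho T h y)⁻¹ *
          ∑ s ∈ T, (if s.len < 8 * rho T h y then s.len * iw s y ^ 10 else 0)) := by
      unfold Bs
      simp_rw [← ave_mul_left]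
      rw [← ave_sum]
      congr 1
      funext y
      rw [Finset.mul_sum]
      refine Finset.sum_congr rfl fun s _ => ?_
      split_ifs
      · ring
      · ring
    rw [e1]
    have h5 : ave (fun y : X K => (rho T h y)⁻¹ *
        ∑ s ∈ T, (if s.len < 8 * rho T h y then s.len * iw s y ^ 10 else 0))
        ≤ ave (fun y : X K => 256 * iR kT jT y ^ 2) := by
      refine ave_mono fun y => ?_
      have hρ := rho_pos (h := h) y
      have h6 := sum_point hT y (t := 8 * rho T h y) (by positivity)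
      calc _ ≤ (rho T h y)⁻¹ * (32 * (8 * rho T h y) * iR kT jT y ^ 2) :=
            mul_le_mul_of_nonneg_left h6 (by positivity)
        _ = _ := by field_simp; ring
    refine h5.trans ?_
    rw [ave_mul_left]
    have hkT : kT ≤ K := by
      obtain ⟨s, hs⟩ := h
      have := (hT.top s hs).1
      have := (hok s hs).1
      omega
    have h7 : ave (fun y : X K => iR kT jT y ^ 2) ≤ 4 * ((2 : ℝ) ^ kT)⁻¹ :=
      geo1 (K := K) le_rfl hkT (pt K kT jT 0)
    calc _ ≤ 256 * (4 * ((2 : ℝ) ^ kT)⁻¹) := mul_le_mul_of_nonneg_left h7 (by norm_num)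
      _ = _ := by ring
  calc _ ≤ 4 * (5 / 4) ^ 11 * μ * (1024 * ((2 : ℝ) ^ kT)⁻¹) :=
        mul_le_mul_of_nonneg_left h4 (by positivity)
    _ = _ := by ring

end Vale.Agent.P091.CH.H862
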